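import Mathlib

set_option autoImplicit false

namespace Crest.Agent.R47

/-- Hypotheses on one side (rows) of a labelled rule system. -/
structure SideOK {X Y P K : Type*} (A : X → Y → Prop) (MX : X → Prop) (MY : Y → Prop)
    (LX : P → X → Fin 66 → Prop) (cls : X → K) : Prop where
  own : ∀ x ρ ρ' i i', ¬ MX x → LX ρ x i → LX ρ' x i' → ρ = ρ'
  func : ∀ x ρ i i', LX ρ x i → LX ρ x i' → i = i'
  same : ∀ ρ x x' i, LX ρ x i → LX ρ x' i → (¬ MX x ∧ ¬ MX x') ∨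
    ((∀ y, MY y → A x y → A x' y) ∨ (∀ y, MY y → A x' y → A x y)) ∧ MX x ∧ MX x'
  hcls : ∀ y x x', MX x → MX x' → A x y → A x' y → cls x = cls x' →
    (∀ y, A x y → A x' y) ∨ (∀ y, A x' y → A x y)

theorem many_ctrl {X Y P K : Type*} [Fintype K] (hK : Fintype.card K ≤ 60)
    {A : X → Y → Prop} {MX : X → Prop} {MY : Y → Prop}
    {LX : P → X → Fin 66 → Prop} {cls : X → K} (hX : SideOK A MX MY LX cls)
    (r : Fin 66 → X) (c : Fin 66 → Y) (hc : ∀ i j, A (r i) (c j) ↔ i ≠ j) (a b : Fin 66) :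
    ∃ i, i ≠ a ∧ i ≠ b ∧ ¬ MX (r i) := by
  classical
  by_contra hcon
  push Not at hcon
  have hcard : (Finset.univ : Finset K).card < ((Finset.univ : Finset (Fin 66)) \ {a, b}).card := by
    have h1 : ({a, b} : Finset (Fin 66)).card ≤ 2 := Finset.card_le_two
    have h2 := Finset.card_sdiff_add_card_eq_card (Finset.subset_univ ({a, b} : Finset (Fin 66)))
    simp only [Finset.card_univ, Fintype.card_fin] at h2 ⊢
    omega
  obtain ⟨i, hi, i', hi', hne, heq⟩ := Finset.exists_ne_map_eq_of_card_lt_of_maps_to hcard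
    (f := fun i => cls (r i)) (fun _ _ => by simp)
  simp only [Finset.mem_sdiff, Finset.mem_univ, Finset.mem_insert, Finset.mem_singleton, true_and,
    not_or] at hi hi'
  rcases hX.hcls (c a) (r i) (r i') (hcon i hi.1 hi.2) (hcon i' hi'.1 hi'.2) ((hc _ _).2 hi.1)
    ((hc _ _).2 hi'.1) heq with h | h
  · exact (hc i' i').1 (h _ ((hc i i').2 hne)) rfl
  · exact (hc i i).1 (h _ ((hc i' i).2 hne.symm)) rfl

theorem lab_inj {X Y P K : Type*}
    {A : X → Y → Prop} {MX : X → Prop} {MY : Y → Prop}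
    {LX : P → X → Fin 66 → Prop} {cls : X → K} (hX : SideOK A MX MY LX cls)
    (r : Fin 66 → X) (c : Fin 66 → Y) (hc : ∀ i j, A (r i) (c j) ↔ i ≠ j)
    (ρ : P) (l m : Fin 66 → Fin 66) (hl : ∀ i, LX ρ (r i) (l i))
    (key : ∀ i j, ¬ (MX (r i) ∧ MY (c j)) → (i ≠ j ↔ l i ≠ m j)) : Function.Injective l := by
  intro i i' hii
  by_contra hne
  have aux : ∀ i i', i ≠ i' → l i = l i' → (MY (c i') → A (r i) (c i') → A (r i') (c i')) →
      (¬ MY (c i') ∨ MY (c i')) → False := by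
    intro i i' hne hii h1 h2
    rcases h2 with h2 | h2
    · have k1 := (key i i' (fun h => h2 h.2)).1 hne
      have k2 := (key i' i' (fun h => h2 h.2)).2 (hii ▸ k1)
      exact k2 rfl
    · exact (hc i' i').1 (h1 h2 ((hc i i').2 hne)) rfl
  rcases hX.same ρ (r i) (r i') (l i) (hl i) (hii ▸ hl i') with ⟨h1, h2⟩ | ⟨h | h, -, -⟩
  · have k1 := (key i i' (fun h => h1 h.1)).1 hne
    have k2 := (key i' i' (fun h => h2 h.1)).2 (hii ▸ k1)
    exact k2 rfl
  · exact aux i i' hne hii (h _) (em' _)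
  · exact aux i' i (Ne.symm hne) hii.symm (h _) (em' _)

theorem rigid_core {X Y P K K' : Type*} [Fintype K] [Fintype K'] (hK : Fintype.card K ≤ 60)
    (hK' : Fintype.card K' ≤ 60)
    {A : X → Y → Prop} {MX : X → Prop} {MY : Y → Prop}
    {LX : P → X → Fin 66 → Prop} {LY : P → Y → Fin 66 → Prop} {cls : X → K} {cls' : Y → K'}
    (hX : SideOK A MX MY LX cls) (hY : SideOK (fun y x => A x y) MY MX LY cls')
    (hA : ∀ x y, ¬ (MX x ∧ MY y) → (A x y ↔ ∃ ρ i j, LX ρ x i ∧ LY ρ y j ∧ i ≠ j))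
    (r : Fin 66 → X) (c : Fin 66 → Y) (hc : ∀ i j, A (r i) (c j) ↔ i ≠ j) :
    ∃ (ρ : P) (l m : Fin 66 → Fin 66), (∀ i, LX ρ (r i) (l i)) ∧ (∀ j, LY ρ (c j) (m j)) ∧
      Function.Injective l ∧ Function.Injective m ∧
      ∀ i, ¬ (MX (r i) ∧ MY (c i)) → l i = m i := by
  have hc' : ∀ i j, (fun y x => A x y) (c i) (r j) ↔ i ≠ j := fun i j => (hc j i).trans ne_comm
  have mr := many_ctrl hK hX r c hc
  have mc := many_ctrl hK' hY c r hc'
  obtain ⟨i1, -, -, hi1⟩ := mr 0 0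
  obtain ⟨j1, hj1, -, hj1'⟩ := mc i1 i1
  obtain ⟨ρ, a, b, ha, hb, -⟩ := (hA (r i1) (c j1) (fun h => hi1 h.1)).1 ((hc _ _).2 hj1.symm)
  have hrow : ∀ i, ∃ k, LX ρ (r i) k := by
    intro i
    obtain ⟨j, hj, hj', hj''⟩ := mc i i1
    obtain ⟨ρ1, a1, b1, ha1, hb1, -⟩ := (hA (r i) (c j) (fun h => hj'' h.2)).1 ((hc _ _).2 hj.symm)
    obtain ⟨ρ2, a2, b2, ha2, hb2, -⟩ := (hA (r i1) (c j) (fun h => hj'' h.2)).1 ((hc _ _).2 hj'.symm)
    have e1 : ρ2 = ρ := hX.own _ _ _ _ _ hi1 ha2 ha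
    have e2 : ρ1 = ρ2 := hY.own _ _ _ _ _ hj'' hb1 hb2
    exact ⟨a1, e1 ▸ e2 ▸ ha1⟩
  have hcol : ∀ j, ∃ k, LY ρ (c j) k := by
    intro j
    obtain ⟨i, hi, -, hi''⟩ := mr j j
    obtain ⟨ρ1, a1, b1, ha1, hb1, -⟩ := (hA (r i) (c j) (fun h => hi'' h.1)).1 ((hc _ _).2 hi)
    obtain ⟨k, hk⟩ := hrow i
    have e1 : ρ1 = ρ := hX.own _ _ _ _ _ hi'' ha1 hk
    exact ⟨b1, e1 ▸ hb1⟩
  choose l hl using hrow
  choose m hm using hcol
  have key : ∀ i j, ¬ (MX (r i) ∧ MY (c j)) → (i ≠ j ↔ l i ≠ m j) := by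
    intro i j hij
    rw [← hc i j, hA _ _ hij]
    constructor
    · rintro ⟨ρ1, a1, b1, ha1, hb1, hab⟩
      have e : ρ1 = ρ := by
        by_cases h : MX (r i)
        · exact hY.own _ _ _ _ _ (fun h' => hij ⟨h, h'⟩) hb1 (hm j)
        · exact hX.own _ _ _ _ _ h ha1 (hl i)
      subst e
      rw [← hX.func _ _ _ _ ha1 (hl i), ← hY.func _ _ _ _ hb1 (hm j)]
      exact hab
    · intro h
      exact ⟨ρ, _, _, hl i, hm j, h⟩
  refine ⟨ρ, l, m, hl, hm, lab_inj hX r c hc ρ l m hl key,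
    lab_inj hY c r hc' ρ m l hm (fun i j h => ?_), fun i hi => ?_⟩
  · rw [ne_comm, key j i (fun h' => h h'.symm), ne_comm]
  · by_contra h
    exact (key i i hi).2 h rfl

theorem lab_eq_id {Y κ : Type*} [LinearOrder κ] {MY : Y → Prop} {L : Y → Fin 66 → Prop}
    (ky : Y → κ) (hmono : ∀ y y' j j', L y j → L y' j' → j < j' → ky y < ky y')
    (hone : ∀ y j, L y j → MY y → j = 0)
    (c : Fin 66 → Y) (hc : Monotone (ky ∘ c)) (l m : Fin 66 → Fin 66) (hm : ∀ j, L (c j) (m j))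
    (hl : Function.Injective l) (hmi : Function.Injective m) (hlm : ∀ i, ¬ MY (c i) → l i = m i) :
    l = id ∧ m = id := by
  have hsm : StrictMono m := by
    intro i i' hii
    rcases lt_trichotomy (m i) (m i') with h | h | h
    · exact h
    · exact absurd (hmi h) hii.ne
    · exact absurd (hmono _ _ _ _ (hm i') (hm i) h) (not_lt.2 (hc hii.le))
  have hmid : m = id := hsm.eq_id
  subst hmid
  have h1 : ∀ j, j ≠ 0 → l j = j := fun j hj => hlm j (fun h => hj (hone _ _ (hm j) h))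
  refine ⟨funext fun j => ?_, rfl⟩
  by_cases hj : j = 0
  · subst hj
    by_contra h
    exact h (hl (h1 (l 0) h))
  · exact h1 j hj

end Crest.Agent.R47
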