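import Mathlib
import Crest.Agent.R47.Rigid

set_option autoImplicit false

namespace Crest.Agent.R47

/-- A rule: scale, chain sign, bit. -/
abbrev Rule (h : ℕ) := Fin h × Bool × Bool
abbrev MTy (h : ℕ) := Fin (h + 1) × Bool
abbrev Ty (h : ℕ) := (Rule h × Fin 66) ⊕ (MTy h ⊕ Fin (120 * h))
abbrev El (h : ℕ) := Ty h × Fin (2 ^ h)

def nrm (v : ℕ) (σ : Bool) : Bool := if v ≤ 1 then false else σ
def newL (σ : Bool) : Fin 66 := if σ then 0 else 1
def oldL (σ : Bool) : Fin 66 := if σ then 1 else 0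

variable {h : ℕ}

def MainT : Ty h → Prop
  | Sum.inr (Sum.inl _) => True
  | _ => False

def Main (x : El h) : Prop := MainT x.1

def MainLab (e : ℕ) (ρ : Rule h) (j : Fin 66) : Prop :=
  ((ρ.1.val + 1) % 2 = e % 2 ∧ j = 0) ∨ (ρ.1.val % 2 = e % 2 ∧ j = newL ρ.2.1) ∨
    (ρ.1.val % 2 = e % 2 ∧ ρ.1.val + 2 ≤ h ∧ j = oldL ρ.2.1)

def Role (e : ℕ) (ρ : Rule h) (v : ℕ) (τ : Bool) (z : ℕ) (j : Fin 66) : Prop :=
  v % 2 = e % 2 ∧
    ((v = ρ.1.val + 1 ∧ τ = nrm v ρ.2.1 ∧ z.testBit ρ.1.val = ρ.2.2 ∧ j = 0) ∨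
     (v = ρ.1.val ∧ τ = nrm v ρ.2.1 ∧ z.testBit ρ.1.val = !ρ.2.2 ∧ j = newL ρ.2.1) ∨
     (v = ρ.1.val + 2 ∧ τ = ρ.2.1 ∧ j = oldL ρ.2.1))

def LabT (e : ℕ) (ρ : Rule h) : Ty h → ℕ → Fin 66 → Prop
  | Sum.inl p, _, j => p.1 = ρ ∧ p.2 = j ∧ ¬ MainLab e ρ j
  | Sum.inr (Sum.inl a), z, j => Role e ρ a.1.val a.2 z j
  | Sum.inr (Sum.inr _), _, _ => False

def Lab (e : ℕ) (ρ : Rule h) (x : El h) (j : Fin 66) : Prop := LabT e ρ x.1 x.2.val j

def Rr (h : ℕ) (σ : Bool) (u z w : ℕ) : Prop :=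
  z / 2 ^ u + w / 2 ^ u + (if σ then 0 else 1) < 2 ^ (h - u)

def Rel (h : ℕ) (v : ℕ) (τ : Bool) (z : ℕ) (v' : ℕ) (τ' : Bool) (w : ℕ) : Prop :=
  v = v' + 1 ∧ τ = nrm v τ ∧ τ' = nrm v' τ ∧ Rr h τ v' z w

def APT (e : ℕ) : Ty h → ℕ → Ty h → ℕ → Prop
  | Sum.inr (Sum.inl a), z, Sum.inr (Sum.inl b), w =>
      a.1.val % 2 = e % 2 ∧ (Rel h a.1.val a.2 z b.1.val b.2 w ∨ Rel h b.1.val b.2 w a.1.val a.2 z)
  | t, z, t', w => ∃ ρ i j, LabT e ρ t z i ∧ LabT (e + 1) ρ t' w j ∧ i ≠ j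

def AP (e : ℕ) (x y : El h) : Prop := APT e x.1 x.2.val y.1 y.2.val

def keyT : Ty h → ℕ → ℕ ×ₗ ℕ ×ₗ ℕ
  | Sum.inl p, _ => toLex (if p.2 = 0 then 0 else p.2.val + 1, toLex (0, 0))
  | Sum.inr (Sum.inl a), z => toLex (1, toLex (z, if a.2 then h + a.1.val else h - a.1.val))
  | Sum.inr (Sum.inr _), _ => toLex (0, toLex (0, 0))

def key (x : El h) : ℕ ×ₗ ℕ ×ₗ ℕ := keyT x.1 x.2.val

def clsT : Ty h → ℕ → Fin 3 × Bool × Bool × Bool
  | Sum.inr (Sum.inl a), z =>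
      (⟨a.1.val % 3, Nat.mod_lt _ (by norm_num)⟩, a.2, z.testBit a.1.val, z.testBit (a.1.val - 1))
  | _, _ => (0, false, false, false)

def cls (x : El h) : Fin 3 × Bool × Bool × Bool := clsT x.1 x.2.val

theorem newL_ne_oldL (σ : Bool) : newL σ ≠ oldL σ := by cases σ <;> simp [newL, oldL]

theorem main_iff (x : El h) : Main x ↔ ∃ a z, x = (Sum.inr (Sum.inl a), z) := by
  rcases x with ⟨t | t | t, z⟩ <;> simp [Main, MainT]

theorem AP_of_not_main (e : ℕ) (x y : El h) (hxy : ¬ (Main x ∧ Main y)) :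
    AP e x y ↔ ∃ ρ i j, Lab e ρ x i ∧ Lab (e + 1) ρ y j ∧ i ≠ j := by
  rcases x with ⟨t | t | t, z⟩ <;> rcases y with ⟨t' | t' | t', w⟩ <;>
    first | rfl | simp [Main, MainT] at hxy

theorem AP_main (e : ℕ) (a b : MTy h) (z w : Fin (2 ^ h)) :
    AP e (Sum.inr (Sum.inl a), z) (Sum.inr (Sum.inl b), w) ↔
      a.1.val % 2 = e % 2 ∧
        (Rel h a.1.val a.2 z b.1.val b.2 w ∨ Rel h b.1.val b.2 w a.1.val a.2 z) := Iff.rfl

theorem Lab_main (e : ℕ) (ρ : Rule h) (a : MTy h) (z : Fin (2 ^ h)) (j : Fin 66) :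
    Lab e ρ (Sum.inr (Sum.inl a), z) j ↔ Role e ρ a.1.val a.2 z j := Iff.rfl

theorem Lab_ctrl (e : ℕ) (ρ : Rule h) (p : Rule h × Fin 66) (z : Fin (2 ^ h)) (j : Fin 66) :
    Lab e ρ (Sum.inl p, z) j ↔ p.1 = ρ ∧ p.2 = j ∧ ¬ MainLab e ρ j := Iff.rfl

theorem Lab_junk (e : ℕ) (ρ : Rule h) (p : Fin (120 * h)) (z : Fin (2 ^ h)) (j : Fin 66) :
    ¬ Lab e ρ (Sum.inr (Sum.inr p), z) j := fun h => h

theorem Lab_congr {e e' : ℕ} (he : e % 2 = e' % 2) (ρ : Rule h) (x : El h) (j : Fin 66) :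
    Lab e ρ x j ↔ Lab e' ρ x j := by
  rcases x with ⟨t | t | t, z⟩
  · simp only [Lab_ctrl, MainLab, he]
  · simp only [Lab_main, Role, he]
  · simp only [Lab_junk]

theorem AP_congr {e e' : ℕ} (he : e % 2 = e' % 2) (x y : El h) : AP e x y ↔ AP e' x y := by
  by_cases hxy : Main x ∧ Main y
  · obtain ⟨a, z, rfl⟩ := (main_iff x).1 hxy.1
    obtain ⟨b, w, rfl⟩ := (main_iff y).1 hxy.2
    simp only [AP_main, he]
  · simp only [AP_of_not_main _ x y hxy, Lab_congr he,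
      Lab_congr (show (e + 1) % 2 = (e' + 1) % 2 by omega)]

theorem AP_swap (e : ℕ) (x y : El h) : AP (e + 1) y x ↔ AP e x y := by
  by_cases hxy : Main x ∧ Main y
  · obtain ⟨a, z, rfl⟩ := (main_iff x).1 hxy.1
    obtain ⟨b, w, rfl⟩ := (main_iff y).1 hxy.2
    simp only [AP_main]
    constructor
    · rintro ⟨h1, h2 | h2⟩
      · exact ⟨by have := h2.1; omega, Or.inr h2⟩
      · exact ⟨by have := h2.1; omega, Or.inl h2⟩
    · rintro ⟨h1, h2 | h2⟩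
      · exact ⟨by have := h2.1; omega, Or.inr h2⟩
      · exact ⟨by have := h2.1; omega, Or.inl h2⟩
  · rw [AP_of_not_main _ x y hxy, AP_of_not_main _ y x (fun h => hxy h.symm)]
    simp only [Lab_congr (show (e + 1 + 1) % 2 = e % 2 by omega)]
    constructor
    · rintro ⟨ρ, i, j, h1, h2, h3⟩
      exact ⟨ρ, j, i, h2, h1, h3.symm⟩
    · rintro ⟨ρ, i, j, h1, h2, h3⟩
      exact ⟨ρ, j, i, h2, h1, h3.symm⟩

theorem Rr_anti {σ : Bool} {u z z' w : ℕ} (hz : z ≤ z') (hR : Rr h σ u z' w) : Rr h σ u z w := by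
  unfold Rr at *
  have : z / 2 ^ u ≤ z' / 2 ^ u := Nat.div_le_div_right hz
  omega

theorem Rr_symm {σ : Bool} {u z w : ℕ} : Rr h σ u z w ↔ Rr h σ u w z := by
  unfold Rr
  rw [add_comm (z / 2 ^ u)]

theorem AP_anti (e : ℕ) (a : MTy h) {z z' : Fin (2 ^ h)} (hz : z ≤ z') (y : El h) (hy : Main y)
    (hA : AP e (Sum.inr (Sum.inl a), z') y) : AP e (Sum.inr (Sum.inl a), z) y := by
  obtain ⟨b, w, rfl⟩ := (main_iff y).1 hy
  rw [AP_main] at *
  refine ⟨hA.1, hA.2.imp (fun h => ⟨h.1, h.2.1, h.2.2.1, Rr_anti hz h.2.2.2⟩)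
    (fun h => ⟨h.1, h.2.1, h.2.2.1, Rr_symm.1 (Rr_anti hz (Rr_symm.1 h.2.2.2))⟩)⟩

theorem role_mainLab {e : ℕ} {ρ : Rule h} {a : MTy h} {z : ℕ} {j : Fin 66}
    (hr : Role e ρ a.1.val a.2 z j) : MainLab e ρ j := by
  obtain ⟨h1, h2 | h2 | h2⟩ := hr
  · exact Or.inl ⟨by omega, h2.2.2.2⟩
  · exact Or.inr (Or.inl ⟨by omega, h2.2.2.2⟩)
  · exact Or.inr (Or.inr ⟨by omega, by have := a.1.isLt; omega, h2.2.2⟩)

def baseT : Ty h → ℕ
  | Sum.inl p => p.1.1.val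
  | Sum.inr (Sum.inl a) => a.1.val - 1
  | Sum.inr (Sum.inr _) => 0

theorem near (e : ℕ) (a : MTy h) (z : Fin (2 ^ h)) (y : El h)
    (hA : AP e (Sum.inr (Sum.inl a), z) y) : baseT y.1 ≤ a.1.val ∧ a.1.val ≤ baseT y.1 + 2 := by
  rcases y with ⟨t | t | t, w⟩
  · rw [AP_of_not_main _ _ _ (by simp [Main, MainT])] at hA
    obtain ⟨ρ, i, j, h1, h2, -⟩ := hA
    rw [Lab_ctrl] at h2
    rw [Lab_main] at h1
    simp only [baseT, h2.1]
    obtain ⟨-, h2 | h2 | h2⟩ := h1 <;> omega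
  · rw [AP_main] at hA
    simp only [baseT]
    obtain ⟨-, h2 | h2⟩ := hA <;> have := h2.1 <;> omega
  · rw [AP_of_not_main _ _ _ (by simp [Main, MainT])] at hA
    obtain ⟨ρ, i, j, h1, h2, -⟩ := hA
    exact absurd h2 (Lab_junk _ _ _ _ _)

theorem sideOK (e : ℕ) : SideOK (AP (h := h) e) Main Main (Lab e) cls where
  own := by
    rintro ⟨t | t | t, z⟩ ρ ρ' i i' hx h1 h2
    · exact h1.1.symm.trans h2.1
    · exact absurd trivial hx
    · exact absurd h1 (Lab_junk _ _ _ _ _)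
  func := by
    rintro ⟨t | t | t, z⟩ ρ i i' h1 h2
    · exact h1.2.1.symm.trans h2.2.1
    · rw [Lab_main] at h1 h2
      obtain ⟨-, h1 | h1 | h1⟩ := h1 <;> obtain ⟨-, h2 | h2 | h2⟩ := h2 <;>
        omega
    · exact absurd h1 (Lab_junk _ _ _ _ _)
  same := by
    rintro ρ ⟨t | t | t, z⟩ ⟨t' | t' | t', z'⟩ i h1 h2
    any_goals exact absurd h1 (Lab_junk _ _ _ _ _)
    any_goals exact absurd h2 (Lab_junk _ _ _ _ _)
    · left; simp [Main, MainT]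
    · exact absurd (role_mainLab h2) h1.2.2
    · exact absurd (role_mainLab h1) h2.2.2
    · right
      refine ⟨?_, trivial, trivial⟩
      have htt : t = t' := by
        rw [Lab_main] at h1 h2
        have hno := newL_ne_oldL ρ.2.1
        obtain ⟨p1, h1 | h1 | h1⟩ := h1 <;> obtain ⟨p2, h2 | h2 | h2⟩ := h2
        any_goals omega
        · have hv : t.1.val = t'.1.val := by omega
          exact Prod.ext (Fin.ext hv) (by rw [h1.2.1, h2.2.1, hv])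
        · have hv : t.1.val = t'.1.val := by omega
          exact Prod.ext (Fin.ext hv) (by rw [h1.2.1, h2.2.1, hv])
        · have hv : t.1.val = t'.1.val := by omega
          exact Prod.ext (Fin.ext hv) (by rw [h1.2.1, h2.2.1])
      subst htt
      rcases le_total z z' with hz | hz
      · exact Or.inr fun y hy => AP_anti e t hz y hy
      · exact Or.inl fun y hy => AP_anti e t hz y hy
  hcls := by
    intro y x x' hx hx' h1 h2 hc
    obtain ⟨a, z, rfl⟩ := (main_iff x).1 hx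
    obtain ⟨a', z', rfl⟩ := (main_iff x').1 hx'
    have n1 := near e a z y h1
    have n2 := near e a' z' y h2
    simp only [cls, clsT, Prod.mk.injEq, Fin.mk.injEq] at hc
    have hv : a.1.val = a'.1.val := by omega
    have haa : a = a' := Prod.ext (Fin.ext hv) hc.2.1
    subst haa
    have hl : ∀ ρ i, Lab e ρ (Sum.inr (Sum.inl a), z) i ↔ Lab e ρ (Sum.inr (Sum.inl a), z') i := by
      have aux : ∀ z z' : Fin (2 ^ h), z.val.testBit a.1.val = z'.val.testBit a.1.val →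
          z.val.testBit (a.1.val - 1) = z'.val.testBit (a.1.val - 1) → ∀ ρ i,
          Lab e ρ (Sum.inr (Sum.inl a), z) i → Lab e ρ (Sum.inr (Sum.inl a), z') i := by
        intro z z' b1 b2 ρ i hl
        rw [Lab_main] at *
        obtain ⟨p, hl | hl | hl⟩ := hl
        · refine ⟨p, Or.inl ⟨hl.1, hl.2.1, ?_, hl.2.2.2⟩⟩
          have : a.1.val - 1 = ρ.1.val := by omega
          rw [this] at b2
          rw [← b2]; exact hl.2.2.1
        · refine ⟨p, Or.inr (Or.inl ⟨hl.1, hl.2.1, ?_, hl.2.2.2⟩)⟩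
          rw [hl.1] at b1
          rw [← b1]; exact hl.2.2.1
        · exact ⟨p, Or.inr (Or.inr hl)⟩
      intro ρ i
      exact ⟨aux z z' hc.2.2.1 hc.2.2.2 ρ i, aux z' z hc.2.2.1.symm hc.2.2.2.symm ρ i⟩
    have hnm : ∀ y, ¬ Main y →
        (AP e (Sum.inr (Sum.inl a), z) y ↔ AP e (Sum.inr (Sum.inl a), z') y) := by
      intro y hy
      rw [AP_of_not_main _ _ _ (fun h => hy h.2), AP_of_not_main _ _ _ (fun h => hy h.2)]
      simp only [hl]
    rcases le_total z z' with hz | hz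
    · refine Or.inr fun y => ?_
      by_cases hy : Main y
      · exact AP_anti e a hz y hy
      · exact (hnm y hy).2
    · refine Or.inl fun y => ?_
      by_cases hy : Main y
      · exact AP_anti e a hz y hy
      · exact (hnm y hy).1

end Crest.Agent.R47
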