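import Mathlib
import Crest.Agent.R47.Defs

set_option autoImplicit false

namespace Crest.Agent.R47

variable {h : ℕ}

theorem nrm_nrm (v : ℕ) (σ : Bool) : nrm v (nrm v σ) = nrm v σ := by
  unfold nrm; split_ifs <;> rfl

theorem nrm_nrm_succ (v : ℕ) (σ : Bool) : nrm v (nrm (v + 1) σ) = nrm v σ := by
  unfold nrm; split_ifs <;> first | rfl | omega

theorem nrm_add_two (v : ℕ) (σ : Bool) : nrm (v + 2) σ = σ := by
  unfold nrm; rw [if_neg (by omega)]

theorem nrm_false (v : ℕ) : nrm v false = false := by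
  unfold nrm; split_ifs <;> rfl

theorem AP_chain (e : ℕ) (a b : MTy h) (z w : Fin (2 ^ h)) (σ : Bool) (he : a.1.val % 2 = e % 2)
    (hb : b.1.val = a.1.val + 1) (ha2 : a.2 = nrm a.1.val σ) (hb2 : b.2 = nrm b.1.val σ) :
    AP e (Sum.inr (Sum.inl a), z) (Sum.inr (Sum.inl b), w) ↔ Rr h b.2 a.1.val z w := by
  rw [AP_main]
  constructor
  · rintro ⟨-, h1 | h1⟩
    · have := h1.1; omega
    · exact Rr_symm.1 h1.2.2.2
  · intro h1
    refine ⟨he, Or.inr ⟨hb, ?_, ?_, Rr_symm.1 h1⟩⟩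
    · rw [hb2, nrm_nrm]
    · rw [ha2, hb2, hb, nrm_nrm_succ]

theorem shared_one {e : ℕ} {ρ : Rule h} (he : (ρ.1.val + 1) % 2 = e % 2) (x : El h) (j : Fin 66)
    (hl : Lab e ρ x j) (hx : Main x) : j = 0 := by
  obtain ⟨a, z, rfl⟩ := (main_iff x).1 hx
  rw [Lab_main] at hl
  obtain ⟨p, hl | hl | hl⟩ := hl <;> omega

theorem key_ctrl (p : Rule h × Fin 66) (z : Fin (2 ^ h)) :
    key (Sum.inl p, z) = toLex (if p.2 = 0 then 0 else p.2.val + 1, toLex (0, 0)) := rfl

theorem key_main (a : MTy h) (z : Fin (2 ^ h)) :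
    key (Sum.inr (Sum.inl a), z) =
      toLex (1, toLex (z.val, if a.2 then h + a.1.val else h - a.1.val)) := rfl

theorem key_lt_ctrl {e : ℕ} {ρ : Rule h} (x x' : El h) (j j' : Fin 66)
    (hl : Lab e ρ x j) (hl' : Lab e ρ x' j') (hj : j < j') (hx' : ¬ Main x') : key x < key x' := by
  rcases x' with ⟨t' | t' | t', z'⟩
  · have h1 : t'.2 = j' := hl'.2.1
    have h2 : j' ≠ 0 := by omega
    rw [key_ctrl, h1, if_neg h2]
    rcases x with ⟨t | t | t, z⟩
    · have h3 : t.2 = j := hl.2.1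
      rw [key_ctrl, h3, Prod.Lex.toLex_lt_toLex]
      left
      dsimp only
      split_ifs <;> omega
    · rw [key_main, Prod.Lex.toLex_lt_toLex]
      left
      dsimp only
      omega
    · exact absurd hl (Lab_junk _ _ _ _ _)
  · exact absurd trivial hx'
  · exact absurd hl' (Lab_junk _ _ _ _ _)

theorem shared_mono {e : ℕ} {ρ : Rule h} (he : (ρ.1.val + 1) % 2 = e % 2) (x x' : El h)
    (j j' : Fin 66) (hl : Lab e ρ x j) (hl' : Lab e ρ x' j') (hj : j < j') : key x < key x' := by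
  refine key_lt_ctrl x x' j j' hl hl' hj (fun hx => ?_)
  have := shared_one he x' j' hl' hx
  omega

theorem le_of_key_le {a a' : MTy h} {z z' : Fin (2 ^ h)}
    (hk : key (Sum.inr (Sum.inl a), z) ≤ key (Sum.inr (Sum.inl a'), z')) : z.val ≤ z'.val := by
  rw [key_main, key_main, Prod.Lex.toLex_le_toLex] at hk
  rcases hk with hk | ⟨-, hk⟩
  · exact absurd hk (lt_irrefl _)
  · rw [Prod.Lex.toLex_le_toLex] at hk
    rcases hk with hk | ⟨hk, -⟩
    · exact hk.le
    · exact hk.le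

theorem Rr_step {u z w : ℕ} (hu : u < h) (hb : z.testBit u = !w.testBit u) :
    (Rr h true (u + 1) z w → Rr h true u z w) ∧ (¬ Rr h false (u + 1) z w → ¬ Rr h false u z w) := by
  unfold Rr
  have h1 : 2 ^ (h - u) = 2 * 2 ^ (h - (u + 1)) := by
    rw [show h - u = (h - (u + 1)) + 1 by omega, pow_succ, mul_comm]
  have h2 : z / 2 ^ (u + 1) = z / 2 ^ u / 2 := by rw [pow_succ, Nat.div_div_eq_div_mul]
  have h3 : w / 2 ^ (u + 1) = w / 2 ^ u / 2 := by rw [pow_succ, Nat.div_div_eq_div_mul]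
  rw [Nat.testBit_eq_decide_div_mod_eq, Nat.testBit_eq_decide_div_mod_eq] at hb
  have h4 : z / 2 ^ u % 2 + w / 2 ^ u % 2 = 1 := by
    by_cases hw : w / 2 ^ u % 2 = 1
    · simp [hw] at hb; omega
    · simp [hw] at hb; omega
  rw [h1, h2, h3]
  generalize z / 2 ^ u = a at *
  generalize w / 2 ^ u = b at *
  generalize 2 ^ (h - (u + 1)) = m at *
  simp only [if_true, Bool.false_eq_true, if_false]
  omega

theorem lab_main_of {e : ℕ} {ρ : Rule h} {x : El h} {j : Fin 66} (hl : Lab e ρ x j)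
    (hm : MainLab e ρ j) : ∃ a z, x = (Sum.inr (Sum.inl a), z) ∧ Role e ρ a.1.val a.2 z.val j := by
  rcases x with ⟨t | t | t, z⟩
  · exact absurd hm hl.2.2
  · exact ⟨t, z, rfl, hl⟩
  · exact absurd hl (Lab_junk _ _ _ _ _)

theorem violation (e : ℕ) (ρ : Rule h) (hu : ρ.1.val % 2 = e % 2) (r c : Fin 66 → El h)
    (hr : Monotone (key ∘ r)) (lr : ∀ i, Lab e ρ (r i) i) (lc : ∀ j, Lab (e + 1) ρ (c j) j)
    (hA : ∀ i j, AP e (r i) (c j) ↔ i ≠ j) :
    ρ.1.val = 0 ∧ ∃ (a b : MTy h) (z w : Fin (2 ^ h)), r 0 = (Sum.inr (Sum.inl a), z) ∧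
      c 0 = (Sum.inr (Sum.inl b), w) ∧ a.1.val = 0 ∧ a.2 = false ∧ b.1.val = 1 ∧ b.2 = false ∧
      z.val + w.val + 1 = 2 ^ h := by
  obtain ⟨u, σ, β⟩ := ρ
  dsimp only at hu ⊢
  have hno := newL_ne_oldL σ
  obtain ⟨b, w, hb, rb⟩ := lab_main_of (lc 0) (Or.inl ⟨by dsimp only; omega, rfl⟩)
  obtain ⟨a, z', ha, ra⟩ := lab_main_of (lr (newL σ)) (Or.inr (Or.inl ⟨hu, rfl⟩))
  have rb' : b.1.val = u.val + 1 ∧ b.2 = nrm b.1.val σ ∧ w.val.testBit u.val = β := by
    obtain ⟨p, h1 | h1 | h1⟩ := rb <;> dsimp only at h1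
    · exact ⟨h1.1, h1.2.1, h1.2.2.1⟩
    · omega
    · omega
  have ra' : a.1.val = u.val ∧ a.2 = nrm a.1.val σ ∧ z'.val.testBit u.val = !β := by
    obtain ⟨p, h1 | h1 | h1⟩ := ra <;> dsimp only at h1
    · omega
    · exact ⟨h1.1, h1.2.1, h1.2.2.1⟩
    · exact absurd h1.2.2 hno
  have hnew := hA (newL σ) 0
  rw [ha, hb, AP_chain e a b z' w σ (by omega) (by omega) ra'.2.1 rb'.2.1, ra'.1] at hnew
  have hstep := Rr_step (z := z'.val) (w := w.val) u.isLt (by rw [ra'.2.2, rb'.2.2])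
  have hold : Rr h σ (u.val + 1) z' w ↔ σ = true := by
    by_cases h2 : u.val + 2 ≤ h
    · obtain ⟨o, z, ho, ro⟩ := lab_main_of (lr (oldL σ)) (Or.inr (Or.inr ⟨hu, h2, rfl⟩))
      have ro' : o.1.val = u.val + 2 ∧ o.2 = σ := by
        obtain ⟨p, h1 | h1 | h1⟩ := ro <;> dsimp only at h1
        · omega
        · exact absurd h1.2.2.2.symm hno
        · exact ⟨h1.1, h1.2.1⟩
      have hold := hA (oldL σ) 0
      rw [ho, hb, ← AP_swap, AP_chain (e + 1) b o w z σ (by omega) (by omega) rb'.2.1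
        (by rw [ro'.1, nrm_add_two, ro'.2]), rb'.1, ro'.2, Rr_symm] at hold
      have h01 : key (r 0) ≤ key (r 1) := hr (show (0 : Fin 66) ≤ 1 by decide)
      cases σ
      · simp only [oldL, newL, Bool.false_eq_true, if_false, ne_eq, not_true_eq_false,
          iff_false] at hold ho ha ⊢
        rw [ho, ha] at h01
        exact fun h => hold (Rr_anti (le_of_key_le h01) h)
      · simp only [oldL, newL, if_true, iff_true] at hold ho ha ⊢
        rw [ho, ha] at h01
        exact Rr_anti (le_of_key_le h01) (hold.2 (by decide))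
    · have h3 : u.val + 1 = h := by have := u.isLt; omega
      unfold Rr
      rw [h3, Nat.div_eq_of_lt z'.isLt, Nat.div_eq_of_lt w.isLt]
      cases σ <;> simp
  cases σ
  · exfalso
    rw [rb'.2.1, nrm_false] at hnew
    simp only [Bool.false_eq_true, iff_false] at hold
    exact hstep.2 hold (hnew.2 (by decide))
  · have h1 := hstep.1 (hold.2 rfl)
    simp only [newL, if_true, ne_eq, not_true_eq_false, iff_false] at hnew ha
    have hu0 : u.val = 0 := by
      by_contra hu0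
      have : b.2 = true := by rw [rb'.2.1, nrm, if_neg (by omega)]
      rw [this] at hnew
      exact hnew h1
    have hb2 : b.2 = false := by rw [rb'.2.1, nrm, if_pos (by omega)]
    have ha2 : a.2 = false := by rw [ra'.2.1, nrm, if_pos (by omega)]
    refine ⟨hu0, a, b, z', w, ha, hb, by omega, ha2, by omega, hb2, ?_⟩
    rw [hb2] at hnew
    unfold Rr at hnew h1
    rw [hu0] at hnew h1
    simp at hnew h1
    omega

theorem copy_struct (r c : Fin 66 → El h) (hr : Monotone (key ∘ r)) (hc : Monotone (key ∘ c))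
    (hA : ∀ i j, AP 1 (r i) (c j) ↔ i ≠ j) :
    ∃ (a b : MTy h) (z w : Fin (2 ^ h)), c 0 = (Sum.inr (Sum.inl a), z) ∧
      r 0 = (Sum.inr (Sum.inl b), w) ∧ a.1.val = 0 ∧ a.2 = false ∧ b.1.val = 1 ∧ b.2 = false ∧
      z.val + w.val + 1 = 2 ^ h := by
  have hY : SideOK (fun y x => AP (h := h) 1 x y) Main Main (Lab 2) cls := by
    have : (fun y x => AP (h := h) 1 x y) = AP 2 := by
      funext y x; exact propext (AP_swap 1 x y).symm
    rw [this]; exact sideOK 2
  obtain ⟨ρ, l, m, hl, hm, li, mi, hlm⟩ := rigid_core (by simp) (by simp) (sideOK 1) hY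
    (AP_of_not_main 1) r c hA
  rcases Nat.mod_two_eq_zero_or_one ρ.1.val with hu | hu
  · have he : (ρ.1.val + 1) % 2 = 1 % 2 := by omega
    obtain ⟨h1, h2⟩ := lab_eq_id key (shared_mono he) (shared_one he) r hr m l hl mi li
      (fun i hi => (hlm i (fun h => hi h.1)).symm)
    subst h1 h2
    exact (violation 2 ρ (by omega) c r hc hm
      (fun j => (Lab_congr (by norm_num) _ _ _).1 (hl j))
      (fun i j => by rw [AP_swap 1, hA, ne_comm])).2
  · have he : (ρ.1.val + 1) % 2 = 2 % 2 := by omega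
    obtain ⟨h1, h2⟩ := lab_eq_id key (shared_mono he) (shared_one he) c hc l m hm li mi
      (fun i hi => (hlm i (fun h => hi h.2)))
    subst h1 h2
    have := (violation 1 ρ (by omega) r c hr hl hm hA).1
    omega

end Crest.Agent.R47
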