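import Mathlib
import Crest.Agent.R47.Copies

set_option autoImplicit false

namespace Crest.Agent.R47

variable {h : ℕ}

theorem AP_lab {e : ℕ} {ρ : Rule h} {x y : El h} {i j : Fin 66} (hx : Lab e ρ x i)
    (hy : Lab (e + 1) ρ y j) (hxy : ¬ (Main x ∧ Main y)) : AP e x y ↔ i ≠ j := by
  rw [AP_of_not_main e x y hxy]
  constructor
  · rintro ⟨ρ1, a1, b1, ha1, hb1, hab⟩
    have e1 : ρ1 = ρ := by
      by_cases h : Main x
      · exact (sideOK (e + 1)).own _ _ _ _ _ (fun h' => hxy ⟨h, h'⟩) hb1 hy
      · exact (sideOK e).own _ _ _ _ _ h ha1 hx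
    subst e1
    rw [← (sideOK e).func _ _ _ _ ha1 hx, ← (sideOK (e + 1)).func _ _ _ _ hb1 hy]
    exact hab
  · intro h
    exact ⟨ρ, _, _, hx, hy, h⟩

open Classical in
noncomputable def pick (p q : Fin (2 ^ h)) (t : Ty h) : El h := (t, if MainT t then p else q)

theorem pick_main (p q : Fin (2 ^ h)) (a : MTy h) :
    pick p q (Sum.inr (Sum.inl a)) = (Sum.inr (Sum.inl a), p) := by
  simp [pick, MainT]

theorem pick_ctrl (p q : Fin (2 ^ h)) (a : Rule h × Fin 66) :
    pick p q (Sum.inl a) = (Sum.inl a, q) := by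
  simp [pick, MainT]

/-- the chain element. -/
def dd (v : ℕ) (hv : v ≤ h) (σ : Bool) : MTy h := (⟨v, Nat.lt_succ_of_le hv⟩, nrm v σ)

theorem step (u : ℕ) (hu : u < h) (σ : Bool) (p q p' q' : Fin (2 ^ h))
    (hbit : p.val.testBit u = !p'.val.testBit u) (B : El h → El h → Prop)
    (good : ∀ t t', ¬ (MainT t ∧ MainT t') →
      (B (pick p q t) (pick p' q' t') ↔ AP u (pick p q t) (pick p' q' t')))
    (nocopy : ¬ ∃ r c : Fin 66 → El h, StrictMono (key ∘ r) ∧ StrictMono (key ∘ c) ∧
      ∀ i j, B (r i) (c j) ↔ i ≠ j)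
    (hold : ∀ h2 : u + 2 ≤ h,
      (B (Sum.inr (Sum.inl (dd (u + 2) h2 σ)), p) (Sum.inr (Sum.inl (dd (u + 1) hu σ)), p') ↔
        σ = true)) :
    B (Sum.inr (Sum.inl (dd u hu.le σ)), p) (Sum.inr (Sum.inl (dd (u + 1) hu σ)), p') ↔ σ = true := by
  classical
  by_contra hcon
  apply nocopy
  let ρ : Rule h := (⟨u, hu⟩, σ, p'.val.testBit u)
  let rowT : Fin 66 → Ty h := fun j =>
    if j = newL σ then Sum.inr (Sum.inl (dd u hu.le σ))
    else if h2 : j = oldL σ ∧ u + 2 ≤ h then Sum.inr (Sum.inl (dd (u + 2) h2.2 σ))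
    else Sum.inl (ρ, j)
  let colT : Fin 66 → Ty h := fun j =>
    if j = 0 then Sum.inr (Sum.inl (dd (u + 1) hu σ)) else Sum.inl (ρ, j)
  have hno := newL_ne_oldL σ
  have lr : ∀ j, Lab u ρ (pick p q (rowT j)) j := by
    intro j
    simp only [rowT]
    split_ifs with h1 h2
    · rw [pick_main, Lab_main]
      exact ⟨rfl, Or.inr (Or.inl ⟨rfl, rfl, hbit, h1⟩)⟩
    · rw [pick_main, Lab_main]
      exact ⟨by simp [dd], Or.inr (Or.inr ⟨rfl, nrm_add_two u σ, h2.1⟩)⟩
    · rw [pick_ctrl, Lab_ctrl]
      refine ⟨rfl, rfl, ?_⟩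
      rintro (h3 | h3 | h3)
      · have := h3.1; simp only [ρ] at this; omega
      · exact h1 h3.2
      · exact h2 ⟨h3.2.2, h3.2.1⟩
  have lc : ∀ j, Lab (u + 1) ρ (pick p' q' (colT j)) j := by
    intro j
    simp only [colT]
    split_ifs with h1
    · rw [pick_main, Lab_main]
      exact ⟨rfl, Or.inl ⟨rfl, rfl, rfl, h1⟩⟩
    · rw [pick_ctrl, Lab_ctrl]
      refine ⟨rfl, rfl, ?_⟩
      rintro (h3 | h3 | h3)
      · exact h1 h3.2
      · have := h3.1; simp only [ρ] at this; omega
      · have := h3.1; simp only [ρ] at this; omega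
  refine ⟨fun j => pick p q (rowT j), fun j => pick p' q' (colT j), ?_, ?_, ?_⟩
  · intro i j hij
    by_cases hj : Main (pick p q (rowT j))
    · have hnew : rowT (newL σ) = Sum.inr (Sum.inl (dd u hu.le σ)) := by simp [rowT]
      have holdT : ∀ h2 : u + 2 ≤ h, rowT (oldL σ) = Sum.inr (Sum.inl (dd (u + 2) h2 σ)) := by
        intro h2
        simp [rowT, hno.symm, h2]
      have holdT' : ¬ u + 2 ≤ h → rowT (oldL σ) = Sum.inl (ρ, oldL σ) := by
        intro h2
        simp [rowT, hno.symm, h2]
      have hj1 : j = newL σ ∨ j = oldL σ := by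
        by_contra h3
        push Not at h3
        have : rowT j = Sum.inl (ρ, j) := by simp [rowT, h3.1, h3.2]
        rw [this] at hj
        exact hj
      have hij' : i = 0 ∧ j = 1 := by
        cases σ <;> simp only [newL, oldL, if_true, Bool.false_eq_true, if_false] at hj1 <;> omega
      obtain ⟨rfl, rfl⟩ := hij'
      show key (pick p q (rowT 0)) < key (pick p q (rowT 1))
      cases σ
      · simp only [newL, oldL, Bool.false_eq_true, if_false] at hnew holdT holdT'
        by_cases h2 : u + 2 ≤ h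
        · rw [hnew, holdT h2, pick_main, pick_main, key_main, key_main, Prod.Lex.toLex_lt_toLex]
          refine Or.inr ⟨rfl, ?_⟩
          rw [Prod.Lex.toLex_lt_toLex]
          refine Or.inr ⟨rfl, ?_⟩
          simp only [dd, nrm_false, Bool.false_eq_true, if_false]
          omega
        · rw [hnew, holdT' h2, pick_main, pick_ctrl, key_main, key_ctrl, Prod.Lex.toLex_lt_toLex]
          left
          simp
      · simp only [newL, oldL, if_true] at hnew holdT holdT'
        by_cases h2 : u + 2 ≤ h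
        · rw [hnew, holdT h2, pick_main, pick_main, key_main, key_main, Prod.Lex.toLex_lt_toLex]
          refine Or.inr ⟨rfl, ?_⟩
          rw [Prod.Lex.toLex_lt_toLex]
          refine Or.inr ⟨rfl, ?_⟩
          simp only [dd, nrm_add_two, if_true]
          split_ifs <;> omega
        · rw [holdT' h2] at hj
          exact absurd hj (fun h => h)
    · exact key_lt_ctrl _ _ i j (lr i) (lr j) hij hj
  · intro i j hij
    exact shared_mono (ρ := ρ) rfl _ _ i j (lc i) (lc j) hij
  · intro i j
    by_cases hm : MainT (rowT i) ∧ MainT (colT j)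
    · have hj : j = 0 := shared_one (ρ := ρ) rfl _ j (lc j) hm.2
      subst hj
      have hc0 : colT 0 = Sum.inr (Sum.inl (dd (u + 1) hu σ)) := by simp [colT]
      by_cases h1 : i = newL σ
      · have : rowT i = Sum.inr (Sum.inl (dd u hu.le σ)) := by simp [rowT, h1]
        show B (pick p q (rowT i)) (pick p' q' (colT 0)) ↔ _
        rw [this, hc0, pick_main, pick_main, h1]
        cases σ <;> simp [newL] at hcon ⊢ <;> exact hcon
      · by_cases h2 : i = oldL σ ∧ u + 2 ≤ h
        · have : rowT i = Sum.inr (Sum.inl (dd (u + 2) h2.2 σ)) := by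
            simp only [rowT, if_neg h1, dif_pos h2]
          show B (pick p q (rowT i)) (pick p' q' (colT 0)) ↔ _
          rw [this, hc0, pick_main, pick_main, hold h2.2, h2.1]
          cases σ <;> simp [oldL]
        · have : rowT i = Sum.inl (ρ, i) := by simp only [rowT, if_neg h1, dif_neg h2]
          rw [this] at hm
          exact absurd hm.1 (fun h => h)
    · show B (pick p q (rowT i)) (pick p' q' (colT j)) ↔ _
      rw [good _ _ hm]
      exact AP_lab (lr i) (lc j) hm

theorem robust (hh : 1 ≤ h) (p q p' q' : Fin (2 ^ h)) (hp : p.val + p'.val + 1 = 2 ^ h)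
    (B : El h → El h → Prop)
    (good : ∀ t t', ¬ (MainT t ∧ MainT t') →
      (B (pick p q t) (pick p' q' t') ↔ AP 1 (pick p q t) (pick p' q' t'))) :
    ∃ r c : Fin 66 → El h, StrictMono (key ∘ r) ∧ StrictMono (key ∘ c) ∧
      ∀ i j, B (r i) (c j) ↔ i ≠ j := by
  by_contra nocopy
  have nocopy' : ¬ ∃ r c : Fin 66 → El h, StrictMono (key ∘ r) ∧ StrictMono (key ∘ c) ∧
      ∀ i j, (fun x y => B y x) (r i) (c j) ↔ i ≠ j := by
    rintro ⟨r, c, hr, hc, hB⟩
    exact nocopy ⟨c, r, hc, hr, fun i j => (hB j i).trans ne_comm⟩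
  have hbit : ∀ u, u < h → p'.val.testBit u = !p.val.testBit u := by
    intro u hu
    have : p'.val = 2 ^ h - (p.val + 1) := by omega
    rw [this, Nat.testBit_two_pow_sub_succ p.isLt]
    simp [hu]
  have main : ∀ (σ : Bool) (k u : ℕ) (hu : u + k + 1 = h),
      (u % 2 = 1 → (B (Sum.inr (Sum.inl (dd u (by omega) σ)), p)
        (Sum.inr (Sum.inl (dd (u + 1) (by omega) σ)), p') ↔ σ = true)) ∧
      (u % 2 = 0 → (B (Sum.inr (Sum.inl (dd (u + 1) (by omega) σ)), p)
        (Sum.inr (Sum.inl (dd u (by omega) σ)), p') ↔ σ = true)) := by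
    intro σ k
    induction k with
    | zero =>
      intro u hu
      refine ⟨fun h1 => ?_, fun h1 => ?_⟩
      · exact step u (by omega) σ p q p' q' (by rw [hbit u (by omega)]; simp) B
          (fun t t' ht => by rw [good t t' ht]; exact AP_congr (by omega) _ _) nocopy
          (fun h2 => by omega)
      · exact step u (by omega) σ p' q' p q (hbit u (by omega)) (fun x y => B y x)
          (fun t t' ht => by
            show B _ _ ↔ _
            rw [good t' t (fun h => ht h.symm), ← AP_swap 1]; exact AP_congr (by omega) _ _) nocopy'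
          (fun h2 => by omega)
    | succ k ih =>
      intro u hu
      refine ⟨fun h1 => ?_, fun h1 => ?_⟩
      · exact step u (by omega) σ p q p' q' (by rw [hbit u (by omega)]; simp) B
          (fun t t' ht => by rw [good t t' ht]; exact AP_congr (by omega) _ _) nocopy
          (fun h2 => (ih (u + 1) (by omega)).2 (by omega))
      · exact step u (by omega) σ p' q' p q (hbit u (by omega)) (fun x y => B y x)
          (fun t t' ht => by
            show B _ _ ↔ _
            rw [good t' t (fun h => ht h.symm), ← AP_swap 1]; exact AP_congr (by omega) _ _) nocopy'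
          (fun h2 => (ih (u + 1) (by omega)).1 (by omega))
  have h1 := (main true (h - 1) 0 (by omega)).2 rfl
  have h2 := (main false (h - 1) 0 (by omega)).2 rfl
  simp only [dd, nrm, zero_add, le_refl, if_true, zero_le_one, iff_true, Bool.false_eq_true,
    iff_false] at h1 h2
  exact h2 h1

end Crest.Agent.R47
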