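import Mathlib
import Crest.Prelude.Def_OrderedMatrix
import Crest.Agent.R47.Robust

set_option autoImplicit false

namespace Crest.Agent.R47

open Crest.CombinatoricsR.OrderedMatrix

variable {h : ℕ}

theorem card_El (h : ℕ) : Fintype.card (El h) = (386 * h + 2) * 2 ^ h := by
  simp only [Fintype.card_prod, Fintype.card_sum, Fintype.card_fin, Fintype.card_bool]
  ring

theorem exists_sorted (h : ℕ) :
    ∃ φ : Fin ((386 * h + 2) * 2 ^ h) ≃ El h, Monotone (key ∘ φ) := by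
  let ψ : Fin ((386 * h + 2) * 2 ^ h) ≃ El h := (Fintype.equivFinOfCardEq (card_El h)).symm
  exact ⟨(Tuple.sort (key ∘ ψ)).trans ψ, Tuple.monotone_sort (key ∘ ψ)⟩

def HH : Fin 66 → Fin 66 → Bool := fun i j => decide (i ≠ j)

open Classical in
noncomputable def AA {n : ℕ} (φ : Fin n ≃ El h) : Fin n → Fin n → Bool :=
  fun i j => decide (AP 1 (φ i) (φ j))

theorem far (hh : 1 ≤ h) {n : ℕ} (φ : Fin n ≃ El h) (hφ : Monotone (key ∘ φ))
    (B : Fin n → Fin n → Bool) (hB : orderedCopyCount HH B = 0) :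
    2 ^ h * 2 ^ h ≤
      (Finset.univ.filter (fun rc : Fin n × Fin n => AA φ rc.1 rc.2 ≠ B rc.1 rc.2)).card := by
  classical
  have hsm : ∀ r : Fin 66 → El h, StrictMono (key ∘ r) → StrictMono (fun i => φ.symm (r i)) := by
    intro r hr i j hij
    by_contra hle
    have := hφ (not_lt.1 hle)
    simp only [Function.comp, Equiv.apply_symm_apply] at this
    exact absurd (hr hij) (not_lt.2 this)
  have hbad : ∀ uv : Fin (2 ^ h) × Fin (2 ^ h), ∃ t t' : Ty h, ¬ (MainT t ∧ MainT t') ∧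
      AA φ (φ.symm (pick (uv.1 + uv.2) uv.1 t)) (φ.symm (pick (uv.1 + uv.2).rev uv.2 t')) ≠
        B (φ.symm (pick (uv.1 + uv.2) uv.1 t)) (φ.symm (pick (uv.1 + uv.2).rev uv.2 t')) := by
    intro uv
    by_contra hcon
    push Not at hcon
    obtain ⟨r, c, hr, hc, hrc⟩ := robust hh (uv.1 + uv.2) uv.1 (uv.1 + uv.2).rev uv.2
      (by rw [Fin.val_rev]; have := (uv.1 + uv.2).isLt; omega)
      (fun x y => B (φ.symm x) (φ.symm y) = true)
      (fun t t' ht => by
        rw [← hcon t t' (fun h1 h2 => ht ⟨h1, h2⟩)]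
        simp [AA])
    unfold orderedCopyCount at hB
    rw [Fintype.card_eq_zero_iff] at hB
    refine hB.false ⟨(fun i => φ.symm (r i), fun j => φ.symm (c j)), hsm r hr, hsm c hc,
      fun i j => ?_⟩
    have := hrc i j
    simp only [HH]
    by_cases hij : i = j
    · simp only [hij, ne_eq, not_true_eq_false, iff_false, Bool.not_eq_true] at this
      simp [hij, this]
    · simp only [ne_eq, hij, not_false_eq_true, iff_true] at this
      simp [hij, this]
  choose t t' hm hne using hbad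
  have hcard : (Finset.univ : Finset (Fin (2 ^ h) × Fin (2 ^ h))).card = 2 ^ h * 2 ^ h := by simp
  rw [← hcard]
  refine Finset.card_le_card_of_injOn
    (fun uv => (φ.symm (pick (uv.1 + uv.2) uv.1 (t uv)), φ.symm (pick (uv.1 + uv.2).rev uv.2 (t' uv))))
    (fun uv _ => by simpa using hne uv) ?_
  rintro ⟨u, v⟩ - ⟨u', v'⟩ - heq
  simp only [Prod.mk.injEq, EmbeddingLike.apply_eq_iff_eq, pick] at heq
  obtain ⟨⟨e1, e2⟩, e3, e4⟩ := heq
  have h1 := hm (u, v)
  rw [← e1] at e2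
  rw [← e3] at e4
  by_cases m1 : MainT (t (u, v))
  · have m2 : ¬ MainT (t' (u, v)) := fun h => h1 ⟨m1, h⟩
    rw [if_pos m1, if_pos m1] at e2
    rw [if_neg m2, if_neg m2] at e4
    subst e4
    rw [add_right_cancel e2]
  · rw [if_neg m1, if_neg m1] at e2
    subst e2
    by_cases m2 : MainT (t' (u, v))
    · rw [if_pos m2, if_pos m2] at e4
      rw [add_left_cancel (Fin.rev_injective e4)]
    · rw [if_neg m2, if_neg m2] at e4
      rw [e4]

theorem few {n : ℕ} (φ : Fin n ≃ El h) (hφ : Monotone (key ∘ φ)) :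
    orderedCopyCount HH (AA φ) ≤ 2 ^ h * (n ^ 65 * n ^ 65) := by
  classical
  unfold orderedCopyCount
  have hcard : Fintype.card (Fin (2 ^ h) × (Fin 65 → Fin n) × (Fin 65 → Fin n)) =
      2 ^ h * (n ^ 65 * n ^ 65) := by simp
  rw [← hcard]
  have hs : ∀ rc : {rc : (Fin 66 → Fin n) × (Fin 66 → Fin n) //
      StrictMono rc.1 ∧ StrictMono rc.2 ∧ ∀ i j : Fin 66, AA φ (rc.1 i) (rc.2 j) = HH i j},
      ∃ (a b : MTy h) (z w : Fin (2 ^ h)), φ (rc.1.2 0) = (Sum.inr (Sum.inl a), z) ∧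
      φ (rc.1.1 0) = (Sum.inr (Sum.inl b), w) ∧ a.1.val = 0 ∧ a.2 = false ∧ b.1.val = 1 ∧
      b.2 = false ∧ z.val + w.val + 1 = 2 ^ h := by
    rintro ⟨⟨r, c⟩, hr, hc, hrc⟩
    refine copy_struct (fun i => φ (r i)) (fun j => φ (c j)) (hφ.comp hr.monotone)
      (hφ.comp hc.monotone) (fun i j => ?_)
    have := hrc i j
    simp only [AA, HH] at this
    exact decide_eq_decide.1 this
  refine Fintype.card_le_of_injective
    (fun rc => ((φ (rc.1.1 0)).2, Fin.tail rc.1.1, Fin.tail rc.1.2)) ?_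
  intro x y hxy
  simp only [Prod.mk.injEq] at hxy
  obtain ⟨e1, e2, e3⟩ := hxy
  obtain ⟨a, b, z, w, h1, h2, h3, h4, h5, h6, h7⟩ := hs x
  obtain ⟨a', b', z', w', h1', h2', h3', h4', h5', h6', h7'⟩ := hs y
  have ea : a = a' := Prod.ext (Fin.ext (by omega)) (by rw [h4, h4'])
  have eb : b = b' := Prod.ext (Fin.ext (by omega)) (by rw [h6, h6'])
  rw [h2, h2'] at e1
  dsimp only at e1
  have ez : z = z' := Fin.ext (by have := congrArg Fin.val e1; omega)
  have r0 : x.1.1 0 = y.1.1 0 := φ.injective (by rw [h2, h2', eb, e1])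
  have c0 : x.1.2 0 = y.1.2 0 := φ.injective (by rw [h1, h1', ea, ez])
  apply Subtype.ext
  apply Prod.ext
  · rw [← Fin.cons_self_tail x.1.1, ← Fin.cons_self_tail y.1.1, r0, e2]
  · rw [← Fin.cons_self_tail x.1.2, ← Fin.cons_self_tail y.1.2, c0, e3]

theorem arith1 (m s : ℝ) (hm : 0 < m) : (m ^ 2)⁻¹ * (m * s) ^ 2 = s * s := by
  field_simp

theorem arith2 (m s n N : ℝ) (hm : 0 < m) (hs : 0 < s) (hn : n = m * s)
    (hN : N ≤ s * (n ^ 65 * n ^ 65)) : N / n ^ 132 ≤ (m ^ 2)⁻¹ * s⁻¹ := by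
  have hn0 : 0 < n := by rw [hn]; exact mul_pos hm hs
  rw [div_le_iff₀ (pow_pos hn0 _)]
  refine le_trans hN (le_of_eq ?_)
  have h1 : n ^ 132 = n ^ 65 * n ^ 65 * n ^ 2 := by rw [← pow_add, ← pow_add]
  rw [h1]
  generalize n ^ 65 * n ^ 65 = w
  rw [hn]
  field_simp

end Crest.Agent.R47
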